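import Vale.Agent.P199.Stage

/-! A two-generated division ring, algebraic over its center and not finite-dimensional. -/

theorem Vale.Agent.Results.P199.Counterexample.result :
    ∃ (R : Type) (_ : DivisionRing R) (x y : R), CharZero R ∧
      Algebra.IsAlgebraic (Subring.center R) R ∧
      Subfield.closure ((Subring.center R : Set R) ∪ {x, y}) = ⊤ ∧
      ¬ Module.Finite (Subring.center R) R ∧
      ∃ (k : Type) (_ : Field k) (_ : Algebra k R), Algebra.IsAlgebraic k R ∧
        Algebra.adjoin k {x, y} = ⊤ ∧ ¬ Module.Finite k R :=
  Vale.Agent.P199.main
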